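import Vale.Agent.P032.H180.Wind

/-!
# P032: heights of three labels on an open interval

`IntCov Q a b` : on `(a, b)` the sets `Q t ⊆ {0, 1, 2}` are nonempty, not all of `{0, 1, 2}`, upper
semicontinuous, and `Q t`, `Q (t + 1)` are incomparable.  `a1`, `a2`, `a3`, `a4` : such a family does
not exist on a long interval if two of the labels meet at most once.
-/

open Set Filter Topology

noncomputable section

namespace Vale.Agent.P032.H564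

open Vale.Agent.P032.H180

/-- data on an open interval -/
structure IntCov (Q : ℝ → Set (Fin 3)) (a b : ℝ) : Prop where
  ne : ∀ t ∈ Ioo a b, (Q t).Nonempty
  nu : ∀ t ∈ Ioo a b, ∃ i, i ∉ Q t
  usc : ∀ t ∈ Ioo a b, ∀ᶠ s in 𝓝 t, Q s ⊆ Q t
  inc : ∀ t, a < t → t + 1 < b → ¬ Q t ⊆ Q (t + 1)
  inc' : ∀ t, a < t → t + 1 < b → ¬ Q (t + 1) ⊆ Q t

variable {Q : ℝ → Set (Fin 3)} {a b : ℝ}

theorem IntCov.mono (h : IntCov Q a b) {a' b' : ℝ} (ha : a ≤ a') (hb : b' ≤ b) :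
    IntCov Q a' b' :=
  ⟨fun t ht => h.ne t ⟨by linarith [ht.1], by linarith [ht.2]⟩,
    fun t ht => h.nu t ⟨by linarith [ht.1], by linarith [ht.2]⟩,
    fun t ht => h.usc t ⟨by linarith [ht.1], by linarith [ht.2]⟩,
    fun t h1 h2 => h.inc t (by linarith) (by linarith),
    fun t h1 h2 => h.inc' t (by linarith) (by linarith)⟩

theorem IntCov.not_distinct (h : IntCov Q a b) {t : ℝ} (ht : t ∈ Ioo a b) {i j l : Fin 3}
    (hi : i ∈ Q t) (hj : j ∈ Q t) (hl : l ∈ Q t) : ¬ (i ≠ j ∧ j ≠ l ∧ i ≠ l) := by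
  rintro ⟨h1, h2, h3⟩
  obtain ⟨m, hm⟩ := h.nu t ht
  have : m = i ∨ m = j ∨ m = l := by
    revert h1 h2 h3; revert i j l m; intro i j l; fin_cases i <;> fin_cases j <;> fin_cases l <;>
      simp <;> intro _ _ _ m <;> fin_cases m <;> simp
  rcases this with rfl | rfl | rfl <;> exact hm ‹_›

theorem IntCov.tor (h : IntCov Q a b) {G : Type*} [AddCommGroup G] (f : Fin 3 → Fin 3 → G)
    (hf : ∀ i j l, ¬ (i ≠ j ∧ j ≠ l ∧ i ≠ l) → f i j + f j l = f i l) {B : Set ℝ}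
    (hB : B ⊆ Ioo a b) : Tor B Q fun _ => f :=
  ⟨fun t ht => h.ne t (hB ht),
    fun _ ht _ hi _ hj _ hl => hf _ _ _ (h.not_distinct (hB ht) hi hj hl),
    fun t ht => mem_nhdsWithin_of_mem_nhds
      ((h.usc t (hB ht)).mono fun _ hs => ⟨hs, fun _ _ _ _ => rfl⟩)⟩

theorem IntCov.pair (h : IntCov Q a b) (t : ℝ) :
    ∃ i j, t ∈ Ioo a b → i ∈ Q t ∧ j ∈ Q t ∧ ∀ l ∈ Q t, l = i ∨ l = j := by
  by_cases ht : t ∈ Ioo a b
  swap
  · exact ⟨0, 0, fun h => absurd h ht⟩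
  obtain ⟨i, hi⟩ := h.ne t ht
  by_cases hex : ∃ j ∈ Q t, j ≠ i
  · obtain ⟨j, hj, hji⟩ := hex
    refine ⟨i, j, fun _ => ⟨hi, hj, fun l hl => ?_⟩⟩
    by_contra hcon
    push Not at hcon
    exact h.not_distinct ht hi hj hl ⟨hji.symm, hcon.2.symm, hcon.1.symm⟩
  · push Not at hex
    exact ⟨i, i, fun _ => ⟨hi, hi, fun l hl => Or.inl (hex l hl)⟩⟩

/-- the integer lift on a compact interval -/
theorem IntCov.lift (h : IntCov Q a b) {u v : ℝ} (hu : a < u) (huv : u < v) (hv : v < b) :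
    ∃ ℓ : ℝ → Fin 3 → ℤ, Sec (Icc u v) Q (fun _ => dz) ℓ ∧
      ∀ t ∈ Icc u v, ∀ i ∈ Q t, (3 : ℤ) ∣ ℓ t i - (i : ℕ) := by
  have hB : Icc u v ⊆ Ioo a b := fun t ht => ⟨by linarith [ht.1], by linarith [ht.2]⟩
  obtain ⟨ℓ, hℓ⟩ := interval huv (h.tor dz dz_coc hB)
  have h3 : Sec (Icc u v) Q (fun _ i j => ((dz i j : ℤ) : ZMod 3))
      fun t i => (ℓ t i : ZMod 3) := by
    refine ⟨fun t ht i hi j hj => ?_, fun t ht => ?_⟩
    · rw [hℓ.diff t ht i hi j hj]; push_cast; rfl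
    · filter_upwards [hℓ.loc t ht] with s hs i hi
      rw [hs i hi]
  have h3' : Sec (Icc u v) Q (fun _ i j => ((dz i j : ℤ) : ZMod 3))
      fun _ i => ((i : ℕ) : ZMod 3) :=
    ⟨fun _ _ i _ j _ => dz_cast i j, fun _ _ => Eventually.of_forall fun _ _ _ => rfl⟩
  have ht3 : Tor (Icc u v) Q (fun _ i j => ((dz i j : ℤ) : ZMod 3)) :=
    h.tor _ (fun i j l hijl => by rw [← dz_coc i j l hijl]; push_cast; rfl) hB
  obtain ⟨c, hc⟩ := Sec.unique ht3 isPreconnected_Icc h3 h3'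
  refine ⟨fun t i => ℓ t i + (-(c.val : ℤ)), hℓ.add _, fun t ht i hi => ?_⟩
  have h1 := hc t ht i hi
  have h2 : ((ℓ t i + (-(c.val : ℤ)) - ((i : ℕ) : ℤ) : ℤ) : ZMod 3) = 0 := by
    push_cast
    rw [h1, ZMod.natCast_zmod_val]
    ring
  exact_mod_cast (ZMod.intCast_zmod_eq_zero_iff_dvd _ 3).1 h2

/-- a height on `[u, v]` with step class `N` -/
structure IntHt (Q : ℝ → Set (Fin 3)) (M : ℝ → ℤ) (u v : ℝ) (N : ℤ) : Prop where
  mem : ∀ t ∈ Icc u v, ∀ l : Fin 3, l ∈ Q t ↔ Res (M t - 2 * (l : ℕ))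
  loc : ∀ t ∈ Icc u v, ∀ᶠ s in 𝓝[Icc u v] t, |M s - M t| ≤ 1
  step : ∀ t, u ≤ t → t + 1 ≤ v → 6 * N + 2 ≤ M (t + 1) - M t ∧ M (t + 1) - M t ≤ 6 * N + 4

/-- **existence of a height** -/
theorem IntCov.exHt (h : IntCov Q a b) {u v : ℝ} (hu : a < u) (huv : u < v) (hv : v < b) :
    ∃ M N, IntHt Q M u v N := by
  have hB : Icc u v ⊆ Ioo a b := fun t ht => ⟨by linarith [ht.1], by linarith [ht.2]⟩
  obtain ⟨ℓ, hℓ, hd⟩ := h.lift hu huv hv
  choose I J hIJ using h.pair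
  have hmem : ∀ t ∈ Icc u v, ∀ l : Fin 3,
      l ∈ Q t ↔ Res (ℓ t (I t) + ℓ t (J t) - 2 * (l : ℕ)) := by
    intro t ht l
    obtain ⟨hI, hJ, hl⟩ := hIJ t (hB ht)
    have h1 := mem_iff_mod (hd t ht _ hI) (hℓ.diff t ht _ hI _ hJ).symm l
    unfold Res
    rw [← h1]
    exact ⟨hl l, fun h2 => by rcases h2 with rfl | rfl; exacts [hI, hJ]⟩
  have hloc : ∀ t ∈ Icc u v, ∀ᶠ s in 𝓝[Icc u v] t,
      |(ℓ s (I s) + ℓ s (J s)) - (ℓ t (I t) + ℓ t (J t))| ≤ 1 := by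
    intro t ht
    obtain ⟨hI, hJ, hl⟩ := hIJ t (hB ht)
    filter_upwards [hℓ.loc t ht, mem_nhdsWithin_of_mem_nhds (h.usc t (hB ht)),
      self_mem_nhdsWithin] with s hs hK hsB
    obtain ⟨hIs, hJs, -⟩ := hIJ s (hB hsB)
    have e1 := hs _ hIs
    have e2 := hs _ hJs
    have e3 := hℓ.diff t ht _ hI _ hJ
    have e4 := abs_dz (I t) (J t)
    have hKs : Q s ⊆ Q t := hK
    rw [e1, e2]
    rw [abs_le] at e4 ⊢
    rcases hl _ (hKs hIs) with a | a <;> rcases hl _ (hKs hJs) with b | b <;>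
      rw [a, b] <;> constructor <;> linarith [e4.1, e4.2]
  obtain ⟨M, hM⟩ : ∃ M : ℝ → ℤ, M = fun t => ℓ t (I t) + ℓ t (J t) := ⟨_, rfl⟩
  replace hmem : ∀ t ∈ Icc u v, ∀ l : Fin 3, l ∈ Q t ↔ Res (M t - 2 * (l : ℕ)) := by
    rw [hM]; exact hmem
  replace hloc : ∀ t ∈ Icc u v, ∀ᶠ s in 𝓝[Icc u v] t, |M s - M t| ≤ 1 := by
    rw [hM]; exact hloc
  have hE : ∀ t, u ≤ t → t + 1 ≤ v → (M (t + 1) - M t) % 6 = 2 ∨ (M (t + 1) - M t) % 6 = 3 ∨
      (M (t + 1) - M t) % 6 = 4 := by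
    intro t h1 h2
    have ht0 : t ∈ Icc u v := ⟨h1, by linarith⟩
    have ht1 : t + 1 ∈ Icc u v := ⟨by linarith, h2⟩
    apply incomparable_mod
    · have := h.inc t (by linarith) (by linarith)
      rw [Set.not_subset] at this
      obtain ⟨l, hl, hl'⟩ := this
      exact ⟨l, (hmem t ht0 l).1 hl, fun hc => hl' ((hmem _ ht1 l).2 hc)⟩
    · have := h.inc' t (by linarith) (by linarith)
      rw [Set.not_subset] at this
      obtain ⟨l, hl, hl'⟩ := this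
      exact ⟨l, (hmem _ ht1 l).1 hl, fun hc => hl' ((hmem _ ht0 l).2 hc)⟩
  have hEloc : ∀ t ∈ Icc u (v - 1), ∀ᶠ s in 𝓝[Icc u (v - 1)] t,
      (M (s + 1) - M s - 2) / 6 = (M (t + 1) - M t - 2) / 6 := by
    intro t ht
    have ht0 : t ∈ Icc u v := ⟨ht.1, by linarith [ht.2]⟩
    have ht1 : t + 1 ∈ Icc u v := ⟨by linarith [ht.1], by linarith [ht.2]⟩
    have h1 := (tendsto_add_Icc (t := t) (a := u) (b := v - 1) (a' := u) (b' := v) (c := 1)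
      fun s hs => ⟨by linarith [hs.1], by linarith [hs.2]⟩).eventually (hloc _ ht1)
    have h2 := nhdsWithin_mono t (Icc_subset_Icc le_rfl (by linarith : v - 1 ≤ v))
      (hloc t ht0)
    filter_upwards [h1, h2, self_mem_nhdsWithin] with s hs1 hs2 hs
    have e1 := hE s hs.1 (by linarith [hs.2])
    have e2 := hE t ht.1 (by linarith [ht.2])
    rw [abs_le] at hs1 hs2
    omega
  have hN := const_of_loc hEloc
  by_cases huv1 : u + 1 ≤ v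
  · refine ⟨M, (M (u + 1) - M u - 2) / 6, hmem, hloc, fun t h1 h2 => ?_⟩
    have e1 := hN t ⟨h1, by linarith⟩ u ⟨le_rfl, by linarith⟩
    have e2 := hE t h1 h2
    omega
  · exact ⟨M, 0, hmem, hloc, fun t h1 h2 => absurd h2 (by linarith)⟩

/-! ### Residues -/

theorem res0 {m : ℤ} (h1 : ¬ Res (m - 2 * ((1 : Fin 3) : ℕ))) (h2 : ¬ Res (m - 2 * ((2 : Fin 3) : ℕ))) :
    m % 6 = 0 := by
  simp [Res] at h1 h2
  omega

theorem res1 {m : ℤ} (h0 : ¬ Res (m - 2 * ((0 : Fin 3) : ℕ))) (h2 : ¬ Res (m - 2 * ((2 : Fin 3) : ℕ))) :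
    m % 6 = 2 := by
  simp [Res] at h0 h2
  omega

theorem res2 {m : ℤ} (h0 : ¬ Res (m - 2 * ((0 : Fin 3) : ℕ))) (h1 : ¬ Res (m - 2 * ((1 : Fin 3) : ℕ))) :
    m % 6 = 4 := by
  simp [Res] at h0 h1
  omega

theorem res02 {m : ℤ} (h : ¬ (Res (m - 2 * ((0 : Fin 3) : ℕ)) ∧ Res (m - 2 * ((2 : Fin 3) : ℕ)))) :
    m % 6 ≠ 5 := by
  intro hm
  apply h
  simp [Res]
  omega

theorem resn2 {m : ℤ} (h2 : ¬ Res (m - 2 * ((2 : Fin 3) : ℕ))) :
    m % 6 = 0 ∨ m % 6 = 1 ∨ m % 6 = 2 := by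
  simp [Res] at h2
  omega

variable {M : ℝ → ℤ} {u v : ℝ} {N : ℤ}

theorem IntHt.r0 (h : IntHt Q M u v N) {t : ℝ} (ht : t ∈ Icc u v) (hQ : Q t ⊆ {0}) :
    M t % 6 = 0 := by
  refine res0 (fun hc => ?_) fun hc => ?_
  · exact absurd (hQ ((h.mem t ht 1).2 hc)) (by decide)
  · exact absurd (hQ ((h.mem t ht 2).2 hc)) (by decide)

theorem IntHt.r1 (h : IntHt Q M u v N) {t : ℝ} (ht : t ∈ Icc u v) (hQ : Q t ⊆ {1}) :
    M t % 6 = 2 := by
  refine res1 (fun hc => ?_) fun hc => ?_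
  · exact absurd (hQ ((h.mem t ht 0).2 hc)) (by decide)
  · exact absurd (hQ ((h.mem t ht 2).2 hc)) (by decide)

theorem IntHt.r2 (h : IntHt Q M u v N) {t : ℝ} (ht : t ∈ Icc u v) (hQ : Q t ⊆ {2}) :
    M t % 6 = 4 := by
  refine res2 (fun hc => ?_) fun hc => ?_
  · exact absurd (hQ ((h.mem t ht 0).2 hc)) (by decide)
  · exact absurd (hQ ((h.mem t ht 1).2 hc)) (by decide)

/-- a function which is locally constant on a preconnected set -/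
theorem const_pre {S : Set ℝ} (hS : IsPreconnected S) {f : ℝ → ℤ}
    (hf : ∀ t ∈ S, ∀ᶠ s in 𝓝[S] t, f s = f t) : ∀ s ∈ S, ∀ t ∈ S, f s = f t := by
  intro s hs t ht
  have hc : ContinuousOn f S := fun x hx =>
    (tendsto_const_nhds (x := f x)).congr' ((hf x hx).mono fun y hy => hy.symm)
  exact hS.constant hc hs ht

/-- the chain index is constant where the labels `0`, `2` do not meet -/
theorem IntHt.chain (h : IntHt Q M u v N) {S : Set ℝ} (hS : IsPreconnected S) (hSu : S ⊆ Icc u v)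
    (hm : ∀ s ∈ S, ¬ (0 ∈ Q s ∧ 2 ∈ Q s)) : ∀ s ∈ S, ∀ t ∈ S, M s / 6 = M t / 6 := by
  have h5 : ∀ s ∈ S, M s % 6 ≠ 5 := fun s hs => res02 fun hc =>
    hm s hs ⟨(h.mem s (hSu hs) 0).2 hc.1, (h.mem s (hSu hs) 2).2 hc.2⟩
  refine const_pre (f := fun s => M s / 6) hS fun t ht => ?_
  filter_upwards [nhdsWithin_mono t hSu (h.loc t (hSu ht)), self_mem_nhdsWithin] with s hs hsS
  have e1 := h5 s hsS
  have e2 := h5 t ht
  rw [abs_le] at hs
  show M s / 6 = M t / 6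
  omega

/-- one meeting point `δ` of `0` and `2` : the chain index is that of `δ` or one more -/
theorem IntHt.key (h : IntHt Q M u v N) {δ : ℝ}
    (hm : ∀ s ∈ Icc u v, 0 ∈ Q s → 2 ∈ Q s → s = δ) (hδ : δ ∈ Icc u v) :
    ∀ x ∈ Icc u v, M x / 6 = M δ / 6 ∨ M x / 6 = M δ / 6 + 1 := by
  have hm' : ∀ s ∈ Icc u v, s ≠ δ → M s % 6 ≠ 5 := fun s hs hne => res02 fun hc =>
    hne (hm s hs ((h.mem s hs 0).2 hc.1) ((h.mem s hs 2).2 hc.2))
  have near : ∀ᶠ y in 𝓝[Icc u v] δ, M y / 6 = M δ / 6 ∨ M y / 6 = M δ / 6 + 1 := by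
    filter_upwards [h.loc δ hδ, self_mem_nhdsWithin] with y hy hyI
    rw [abs_le] at hy
    by_cases hyδ : y = δ
    · left; rw [hyδ]
    have e1 := hm' y hyI hyδ
    omega
  intro x hx
  rcases lt_trichotomy x δ with hlt | rfl | hgt
  · have hS : IsPreconnected (Ico x δ) := isPreconnected_Ico
    have hSu : Ico x δ ⊆ Icc u v := fun y hy => ⟨by linarith [hx.1, hy.1], by linarith [hy.2, hδ.2]⟩
    have hc := h.chain hS hSu fun y hy hc => absurd (hm y (hSu hy) hc.1 hc.2) (ne_of_lt hy.2)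
    have hcl : δ ∈ closure (Ico x δ) := by
      rw [closure_Ico hlt.ne]; exact ⟨hlt.le, le_rfl⟩
    rw [mem_closure_iff_nhdsWithin_neBot] at hcl
    have nr : ∀ᶠ y in 𝓝[Ico x δ] δ, M y / 6 = M δ / 6 ∨ M y / 6 = M δ / 6 + 1 :=
      nhdsWithin_mono δ hSu near
    obtain ⟨y, hy1, hy2⟩ := (nr.and self_mem_nhdsWithin).exists
    have := hc x ⟨le_rfl, hlt⟩ y hy2
    rw [this]
    exact hy1
  · exact Or.inl rfl
  · have hS : IsPreconnected (Ioc δ x) := isPreconnected_Ioc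
    have hSu : Ioc δ x ⊆ Icc u v := fun y hy => ⟨by linarith [hδ.1, hy.1], by linarith [hy.2, hx.2]⟩
    have hc := h.chain hS hSu fun y hy hc => absurd (hm y (hSu hy) hc.1 hc.2) (ne_of_gt hy.1)
    have hcl : δ ∈ closure (Ioc δ x) := by
      rw [closure_Ioc hgt.ne]; exact ⟨le_rfl, hgt.le⟩
    rw [mem_closure_iff_nhdsWithin_neBot] at hcl
    have nr : ∀ᶠ y in 𝓝[Ioc δ x] δ, M y / 6 = M δ / 6 ∨ M y / 6 = M δ / 6 + 1 :=
      nhdsWithin_mono δ hSu near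
    obtain ⟨y, hy1, hy2⟩ := (nr.and self_mem_nhdsWithin).exists
    have := hc x ⟨hgt, le_rfl⟩ y hy2
    rw [this]
    exact hy1

/-- one meeting point of `0` and `2` : the chain index changes by at most one -/
theorem IntHt.chain1 (h : IntHt Q M u v N) {δ : ℝ}
    (hm : ∀ s ∈ Icc u v, 0 ∈ Q s → 2 ∈ Q s → s = δ) {s t : ℝ} (hs : s ∈ Icc u v)
    (ht : t ∈ Icc u v) : M s / 6 - M t / 6 ≤ 1 ∧ (M s % 6 = 5 → M s / 6 ≤ M t / 6) := by
  by_cases hδ : δ ∈ Icc u v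
  swap
  · have := h.chain isPreconnected_Icc Subset.rfl
      (fun x hx hc => hδ (hm x hx hc.1 hc.2 ▸ hx)) s hs t ht
    omega
  have k1 := h.key hm hδ s hs
  have k2 := h.key hm hδ t ht
  refine ⟨by omega, fun h5 => ?_⟩
  have hsδ : s = δ := by
    by_contra hne
    exact res02 (fun hc => hne (hm s hs ((h.mem s hs 0).2 hc.1) ((h.mem s hs 2).2 hc.2))) h5
  rw [hsδ]
  omega

/-- five steps -/
theorem IntHt.five (h : IntHt Q M u v N) {t : ℝ} (h1 : u ≤ t - 5) (h2 : t ≤ v) :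
    (0 ≤ N → M (t - 5) ≤ M (t - 2) - 6 ∧ M (t - 2) ≤ M (t - 1) - 2 ∧ M (t - 1) ≤ M t - 2) ∧
      (N < 0 → M (t - 2) + 6 ≤ M (t - 5) ∧ M (t - 1) + 2 ≤ M (t - 2) ∧
        M t + 2 ≤ M (t - 1)) := by
  have s1 := h.step (t - 5) (by linarith) (by linarith)
  have s2 := h.step (t - 4) (by linarith) (by linarith)
  have s3 := h.step (t - 3) (by linarith) (by linarith)
  have s4 := h.step (t - 2) (by linarith) (by linarith)
  have s5 := h.step (t - 1) (by linarith) (by linarith)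
  rw [show t - 5 + 1 = t - 4 by ring] at s1
  rw [show t - 4 + 1 = t - 3 by ring] at s2
  rw [show t - 3 + 1 = t - 2 by ring] at s3
  rw [show t - 2 + 1 = t - 1 by ring] at s4
  rw [show t - 1 + 1 = t by ring] at s5
  constructor
  · intro hN
    refine ⟨?_, ?_, ?_⟩ <;> omega
  · intro hN
    refine ⟨?_, ?_, ?_⟩ <;> omega

theorem has1 {m : ℤ} (h1 : Res (m - 2 * ((1 : Fin 3) : ℕ))) : m % 6 = 1 ∨ m % 6 = 2 ∨ m % 6 = 3 := by
  simp [Res] at h1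
  omega

theorem only1 {m : ℤ} (h : m % 6 = 2) (l : Fin 3) (hl : Res (m - 2 * (l : ℕ))) : l = 1 := by
  fin_cases l
  · simp [Res] at hl; omega
  · rfl
  · simp [Res] at hl; omega

theorem only2 {m : ℤ} (h : m % 6 = 4) (l : Fin 3) (hl : Res (m - 2 * (l : ℕ))) : l = 2 := by
  fin_cases l
  · simp [Res] at hl; omega
  · simp [Res] at hl; omega
  · rfl

/-! ### The normalized lemmas -/

theorem n1 (h : IntCov Q a b) {δ : ℝ} (hm : ∀ s ∈ Ioo a b, 0 ∈ Q s → 2 ∈ Q s → s = δ) {t : ℝ}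
    (ht : a + 5 < t) (ht' : t < b) (hQ : 1 ∈ Q t) : False := by
  obtain ⟨M, N, H⟩ := h.exHt (u := t - 5) (v := t) (by linarith) (by linarith) ht'
  have t0 : t ∈ Icc (t - 5) t := ⟨by linarith, le_rfl⟩
  have t5 : t - 5 ∈ Icc (t - 5) t := ⟨le_rfl, by linarith⟩
  have hm' : ∀ s ∈ Icc (t - 5) t, 0 ∈ Q s → 2 ∈ Q s → s = δ := fun s hs =>
    hm s ⟨by linarith [hs.1], by linarith [hs.2]⟩
  have c1 := H.chain1 hm' t0 t5
  have c2 := H.chain1 hm' t5 t0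
  have r := has1 ((H.mem t t0 1).1 hQ)
  have f := H.five (t := t) le_rfl le_rfl
  obtain ⟨c1, -⟩ := c1
  obtain ⟨c2, c2'⟩ := c2
  rcases lt_or_ge N 0 with hN | hN
  · obtain ⟨f1, f2, f3⟩ := f.2 hN
    by_cases h5 : M (t - 5) % 6 = 5
    · have := c2' h5
      omega
    · omega
  · obtain ⟨f1, f2, f3⟩ := f.1 hN
    omega

theorem n2 (h : IntCov Q a b) {δ : ℝ} (hm : ∀ s ∈ Ioo a b, 0 ∈ Q s → 2 ∈ Q s → s = δ) {t : ℝ}
    (ht : a + 5 < t) (ht' : t < b) (hQ : Q t ⊆ {0}) : Q (t - 1) ⊆ {1} ∧ Q (t - 2) ⊆ {2} := by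
  obtain ⟨M, N, H⟩ := h.exHt (u := t - 5) (v := t) (by linarith) (by linarith) ht'
  have t0 : t ∈ Icc (t - 5) t := ⟨by linarith, le_rfl⟩
  have t1 : t - 1 ∈ Icc (t - 5) t := ⟨by linarith, by linarith⟩
  have t2 : t - 2 ∈ Icc (t - 5) t := ⟨by linarith, by linarith⟩
  have t5 : t - 5 ∈ Icc (t - 5) t := ⟨le_rfl, by linarith⟩
  have hm' : ∀ s ∈ Icc (t - 5) t, 0 ∈ Q s → 2 ∈ Q s → s = δ := fun s hs =>
    hm s ⟨by linarith [hs.1], by linarith [hs.2]⟩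
  have c1 := H.chain1 hm' t0 t5
  have c2 := H.chain1 hm' t5 t0
  have r := H.r0 t0 hQ
  have f := H.five (t := t) le_rfl le_rfl
  obtain ⟨c1, -⟩ := c1
  obtain ⟨c2, c2'⟩ := c2
  rcases lt_or_ge N 0 with hN | hN
  · obtain ⟨f1, f2, f3⟩ := f.2 hN
    have h5 : M (t - 5) % 6 ≠ 5 := fun h5 => by
      have := c2' h5
      omega
    have g1 : M (t - 1) % 6 = 2 := by omega
    have g2 : M (t - 2) % 6 = 4 := by omega
    exact ⟨fun l hl => only1 g1 l ((H.mem _ t1 l).1 hl), fun l hl =>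
      only2 g2 l ((H.mem _ t2 l).1 hl)⟩
  · obtain ⟨f1, f2, f3⟩ := f.1 hN
    exfalso
    omega

theorem n4 (h : IntCov Q a b) {c : ℝ} (hm : ∀ s ∈ Ioo c b, ¬ (0 ∈ Q s ∧ 2 ∈ Q s)) (hac : a ≤ c)
    (hcb : c + 3 < b) : False := by
  set t := (c + 3 + b) / 2 with htdef
  obtain ⟨M, N, H⟩ := h.exHt (u := t - 3) (v := t) (by linarith) (by linarith) (by linarith)
  have t0 : t ∈ Icc (t - 3) t := ⟨by linarith, le_rfl⟩
  have t3 : t - 3 ∈ Icc (t - 3) t := ⟨le_rfl, by linarith⟩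
  have c1 := H.chain isPreconnected_Icc Subset.rfl
    (fun s hs => hm s ⟨by linarith [hs.1], by linarith [hs.2]⟩) _ t0 _ t3
  have h5 : ∀ s ∈ Icc (t - 3) t, M s % 6 ≠ 5 := fun s hs => res02 fun hc =>
    hm s ⟨by linarith [hs.1], by linarith [hs.2]⟩ ⟨(H.mem s hs 0).2 hc.1, (H.mem s hs 2).2 hc.2⟩
  have g0 := h5 _ t0
  have g3 := h5 _ t3
  have s1 := H.step (t - 3) (by linarith) (by linarith)
  have s2 := H.step (t - 2) (by linarith) (by linarith)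
  have s3 := H.step (t - 1) (by linarith) (by linarith)
  rw [show t - 3 + 1 = t - 2 by ring] at s1
  rw [show t - 2 + 1 = t - 1 by ring] at s2
  rw [show t - 1 + 1 = t by ring] at s3
  rcases lt_or_ge N 0 with hN | hN
  · omega
  · omega

theorem n3_aux (h : IntCov Q a b) (hm : ∀ s ∈ Ioo a b, 2 ∈ Q s → ¬ (0 ∈ Q s ∨ 1 ∈ Q s))
    (hab : a + 2 < b) : False := by
  -- all or none
  have hor : (∀ s ∈ Ioo a b, 2 ∈ Q s) ∨ ∀ s ∈ Ioo a b, 2 ∉ Q s := by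
    classical
    have hc := const_pre (S := Ioo a b) isPreconnected_Ioo
      (f := fun s => if (2 : Fin 3) ∈ Q s then 1 else 0) fun t ht => by
        filter_upwards [mem_nhdsWithin_of_mem_nhds (h.usc t ht), self_mem_nhdsWithin] with s hs hsI
        have hs' : Q s ⊆ Q t := hs
        by_cases h2 : (2 : Fin 3) ∈ Q t
        · have : (2 : Fin 3) ∈ Q s := by
            obtain ⟨i, hi⟩ := h.ne s hsI
            have hn := hm t ht h2
            fin_cases i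
            · exact absurd (Or.inl (hs' hi)) hn
            · exact absurd (Or.inr (hs' hi)) hn
            · exact hi
          simp [h2, this]
        · have : (2 : Fin 3) ∉ Q s := fun h3 => h2 (hs' h3)
          simp [h2, this]
    by_cases h0 : ∃ s ∈ Ioo a b, (2 : Fin 3) ∈ Q s
    · obtain ⟨s, hs, h2⟩ := h0
      left
      intro t ht
      have := hc t ht s hs
      simp only [h2, if_true] at this
      by_contra hcon
      simp [hcon] at this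
    · push Not at h0
      exact Or.inr h0
  rcases hor with h2 | h2
  · set t := (a + (b - 1)) / 2 with htdef
    have e1 : t ∈ Ioo a b := ⟨by linarith, by linarith⟩
    have e2 : t + 1 ∈ Ioo a b := ⟨by linarith, by linarith⟩
    refine h.inc t (by linarith) (by linarith) fun i hi => ?_
    have hn := hm t e1 (h2 t e1)
    fin_cases i
    · exact absurd (Or.inl hi) hn
    · exact absurd (Or.inr hi) hn
    · exact h2 _ e2
  · set t := (a + 2 + b) / 2 with htdef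
    obtain ⟨M, N, H⟩ := h.exHt (u := t - 2) (v := t) (by linarith) (by linarith) (by linarith)
    have t0 : t ∈ Icc (t - 2) t := ⟨by linarith, le_rfl⟩
    have t2 : t - 2 ∈ Icc (t - 2) t := ⟨le_rfl, by linarith⟩
    have c1 := H.chain isPreconnected_Icc Subset.rfl
      (fun s hs hc => h2 s ⟨by linarith [hs.1], by linarith [hs.2]⟩ hc.2) _ t0 _ t2
    have hr : ∀ s ∈ Icc (t - 2) t, M s % 6 = 0 ∨ M s % 6 = 1 ∨ M s % 6 = 2 := fun s hs =>
      resn2 fun hc => h2 s ⟨by linarith [hs.1], by linarith [hs.2]⟩ ((H.mem s hs 2).2 hc)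
    have g0 := hr _ t0
    have g2 := hr _ t2
    have s1 := H.step (t - 2) (by linarith) (by linarith)
    have s2 := H.step (t - 1) (by linarith) (by linarith)
    rw [show t - 2 + 1 = t - 1 by ring] at s1
    rw [show t - 1 + 1 = t by ring] at s2
    rcases lt_or_ge N 0 with hN | hN
    · omega
    · omega

theorem n3 (h : IntCov Q a b) {δ : ℝ}
    (hm : ∀ s ∈ Ioo a b, 2 ∈ Q s → (0 ∈ Q s ∨ 1 ∈ Q s) → s = δ) (hab : a + 4 < b) : False := by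
  rcases le_or_gt δ ((a + b) / 2) with hδ | hδ
  · refine n3_aux (h.mono (a' := max a δ) (b' := b) (le_max_left _ _) le_rfl)
      (fun s hs h2 h01 => ?_) ?_
    · have := hm s ⟨lt_of_le_of_lt (le_max_left _ _) hs.1, hs.2⟩ h2 h01
      exact absurd (lt_of_le_of_lt (le_max_right _ _) hs.1) (by rw [this]; exact lt_irrefl _)
    · rcases max_cases a δ with ⟨h1, _⟩ | ⟨h1, _⟩ <;> rw [h1] <;> linarith
  · refine n3_aux (h.mono (a' := a) (b' := min b δ) le_rfl (min_le_left _ _))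
      (fun s hs h2 h01 => ?_) ?_
    · have := hm s ⟨hs.1, lt_of_lt_of_le hs.2 (min_le_left _ _)⟩ h2 h01
      exact absurd (lt_of_lt_of_le hs.2 (min_le_right _ _)) (by rw [this]; exact lt_irrefl _)
    · rcases min_cases b δ with ⟨h1, _⟩ | ⟨h1, _⟩ <;> rw [h1] <;> linarith

/-! ### Relabelling -/

/-- pull back along a permutation of the labels -/
theorem IntCov.comap (h : IntCov Q a b) (σ : Fin 3 → Fin 3) (hσ : Function.Surjective σ) :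
    IntCov (fun t => {i | σ i ∈ Q t}) a b := by
  refine ⟨fun t ht => ?_, fun t ht => ?_, fun t ht => ?_, fun t h1 h2 hs => ?_,
    fun t h1 h2 hs => ?_⟩
  · obtain ⟨i, hi⟩ := h.ne t ht
    obtain ⟨j, rfl⟩ := hσ i
    exact ⟨j, hi⟩
  · obtain ⟨i, hi⟩ := h.nu t ht
    obtain ⟨j, rfl⟩ := hσ i
    exact ⟨j, hi⟩
  · filter_upwards [h.usc t ht] with s hs i hi
    exact hs hi
  · refine h.inc t h1 h2 fun i hi => ?_
    obtain ⟨j, rfl⟩ := hσ i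
    exact hs hi
  · refine h.inc' t h1 h2 fun i hi => ?_
    obtain ⟨j, rfl⟩ := hσ i
    exact hs hi

theorem perm_surj {l0 l1 l2 : Fin 3} (h01 : l0 ≠ l1) (h12 : l1 ≠ l2) (h02 : l0 ≠ l2) :
    Function.Surjective ![l0, l1, l2] := by
  revert l0 l1 l2
  decide

theorem perm_eq {l0 l1 l2 : Fin 3} (h01 : l0 ≠ l1) (h12 : l1 ≠ l2) (h02 : l0 ≠ l2) :
    (∀ i, ![l0, l1, l2] i = l0 → i = 0) ∧ (∀ i, ![l0, l1, l2] i = l1 → i = 1) ∧
      (∀ i, ![l0, l1, l2] i = l2 → i = 2) := by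
  revert l0 l1 l2
  decide

variable {l0 l1 l2 : Fin 3} {δ : ℝ}

/-- **(A1)** -/
theorem a1' (h : IntCov Q a b) (h01 : l0 ≠ l1) (h12 : l1 ≠ l2) (h02 : l0 ≠ l2)
    (hm : ∀ s ∈ Ioo a b, l0 ∈ Q s → l2 ∈ Q s → s = δ) {t : ℝ} (ht : a + 5 < t) (ht' : t < b)
    (hQ : l1 ∈ Q t) : False :=
  n1 (h.comap _ (perm_surj h01 h12 h02)) (fun s hs h0 h2 => hm s hs h0 h2) ht ht' hQ

theorem a1 (h : IntCov Q a b) (h01 : l0 ≠ l1) (h12 : l1 ≠ l2) (h02 : l0 ≠ l2)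
    (hm : ∀ s ∈ Ioo a b, l0 ∈ Q s → l2 ∈ Q s → s = δ) {t : ℝ} (ht : a + 5 < t) (ht' : t < b)
    (hQ : Q t ⊆ {l1}) : False := by
  obtain ⟨i, hi⟩ := h.ne t ⟨by linarith, ht'⟩
  have : i = l1 := hQ hi
  exact a1' h h01 h12 h02 hm ht ht' (this ▸ hi)

/-- **(A2)** all steps are exact -/
theorem a2s (h : IntCov Q a b) (h01 : l0 ≠ l1) (h12 : l1 ≠ l2) (h02 : l0 ≠ l2)
    (hm : ∀ s ∈ Ioo a b, l0 ∈ Q s → l2 ∈ Q s → s = δ) {t : ℝ} (ht : a + 5 < t) (ht' : t < b)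
    (hQ : Q t ⊆ {l0}) : Q (t - 1) ⊆ {l1} ∧ Q (t - 2) ⊆ {l2} := by
  have hs := perm_surj h01 h12 h02
  have hp := perm_eq h01 h12 h02
  obtain ⟨k1, k2⟩ := n2 (h.comap _ hs) (fun s hs h0 h2 => hm s hs h0 h2) ht ht'
    (fun i hi => hp.1 i (hQ hi))
  refine ⟨fun l hl => ?_, fun l hl => ?_⟩
  · obtain ⟨i, rfl⟩ := hs l
    have : i = 1 := k1 hl
    rw [this]
    rfl
  · obtain ⟨i, rfl⟩ := hs l
    have : i = 2 := k2 hl
    rw [this]
    rfl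

/-- **(A2)** at the end of the interval -/
theorem a2e (h : IntCov Q a b) (h01 : l0 ≠ l1) (h12 : l1 ≠ l2) (h02 : l0 ≠ l2)
    (hm : ∀ s ∈ Ioo a b, l0 ∈ Q s → l2 ∈ Q s → s = δ) (hab : a + 5 < b)
    (hQ : ∀ᶠ t in 𝓝[<] b, Q t ⊆ {l0}) : l1 ∈ Q (b - 1) ∧ l2 ∈ Q (b - 2) := by
  have h1 : ∀ᶠ t in 𝓝[<] b, t ∈ Ioo (a + 5) b := Ioo_mem_nhdsLT hab
  have h2 : ∀ c : ℝ, a < b - c → 0 < c → ∀ᶠ t in 𝓝[<] b, Q (t - c) ⊆ Q (b - c) := by
    intro c hc hc'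
    have h3 := h.usc (b - c) ⟨hc, by linarith⟩
    have h4 : Tendsto (fun t : ℝ => t - c) (𝓝[<] b) (𝓝 (b - c)) :=
      ((continuous_id.sub continuous_const).tendsto b).mono_left nhdsWithin_le_nhds
    exact h4.eventually h3
  obtain ⟨t, ⟨⟨h3, h4⟩, h5⟩, h6⟩ :=
    (((h1.and (h2 1 (by linarith) one_pos)).and (h2 2 (by linarith) two_pos)).and hQ).exists
  obtain ⟨k1, k2⟩ := a2s h h01 h12 h02 hm h3.1 h3.2 h6
  obtain ⟨i, hi⟩ := h.ne (t - 1) ⟨by linarith [h3.1], by linarith [h3.2]⟩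
  obtain ⟨j, hj⟩ := h.ne (t - 2) ⟨by linarith [h3.1], by linarith [h3.2]⟩
  have e1 : i = l1 := k1 hi
  have e2 : j = l2 := k2 hj
  exact ⟨h4 (e1 ▸ hi), h5 (e2 ▸ hj)⟩

theorem a2 (h : IntCov Q a b) (h01 : l0 ≠ l1) (h12 : l1 ≠ l2) (h02 : l0 ≠ l2)
    (hm : ∀ s ∈ Ioo a b, l0 ∈ Q s → l2 ∈ Q s → s = δ) {t : ℝ} (ht : a + 5 < t) (ht' : t < b)
    (hQ : Q t ⊆ {l0}) (hQ' : Q (t - 1) ⊆ {l2}) : False := by
  obtain ⟨k1, -⟩ := a2s h h01 h12 h02 hm ht ht' hQ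
  obtain ⟨i, hi⟩ := h.ne (t - 1) ⟨by linarith, by linarith⟩
  exact h12 ((show i = l1 from k1 hi).symm.trans (show i = l2 from hQ' hi))

/-- **(A2)**, at the end of the interval -/
theorem a2' (h : IntCov Q a b) (h01 : l0 ≠ l1) (h12 : l1 ≠ l2) (h02 : l0 ≠ l2)
    (hm : ∀ s ∈ Ioo a b, l0 ∈ Q s → l2 ∈ Q s → s = δ) (hab : a + 5 < b)
    (hQ : ∀ᶠ t in 𝓝[<] b, Q t ⊆ {l0}) (hQ' : Q (b - 1) ⊆ {l2}) : False :=
  h12 (hQ' (a2e h h01 h12 h02 hm hab hQ).1)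

/-- **(A3)** -/
theorem a3 (h : IntCov Q a b) (h01 : l0 ≠ l1) (h12 : l1 ≠ l2) (h02 : l0 ≠ l2)
    (hm : ∀ s ∈ Ioo a b, l2 ∈ Q s → (l0 ∈ Q s ∨ l1 ∈ Q s) → s = δ) (hab : a + 4 < b) : False :=
  n3 (h.comap _ (perm_surj h01 h12 h02)) (fun s hs h2 h01' => hm s hs h2 h01') hab

/-- **(A4)** the labels `l0`, `l2` do not meet on an interval of length `> 3` -/
theorem a4 (h : IntCov Q a b) (h01 : l0 ≠ l1) (h12 : l1 ≠ l2) (h02 : l0 ≠ l2) {c : ℝ}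
    (hm : ∀ s ∈ Ioo c b, ¬ (l0 ∈ Q s ∧ l2 ∈ Q s)) (hac : a ≤ c) (hcb : c + 3 < b) : False :=
  n4 (h.comap _ (perm_surj h01 h12 h02)) (fun s hs hc => hm s hs ⟨hc.1, hc.2⟩) hac hcb

end Vale.Agent.P032.H564
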