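import Vale.Agent.P032.H564.IntHt

/-!
# P032: heights of three labels on an open interval, global form

`IntCov.exHtO` : on the whole open interval `(a, b)` there is one height `M` with one step class `N`.
-/

open Set Filter Topology

noncomputable section

namespace Vale.Agent.P032.H564

open Vale.Agent.P032.H180

variable {Q : ℝ → Set (Fin 3)} {a b : ℝ}

/-- the integer lift on the open interval -/
theorem IntCov.liftO (h : IntCov Q a b) (hab : a < b) :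
    ∃ ℓ : ℝ → Fin 3 → ℤ, Sec (Ioo a b) Q (fun _ => dz) ℓ ∧
      ∀ t ∈ Ioo a b, ∀ i ∈ Q t, (3 : ℤ) ∣ ℓ t i - (i : ℕ) := by
  obtain ⟨m, hm⟩ : ∃ m : ℝ, m = (a + b) / 2 := ⟨_, rfl⟩
  have hma : a < m := by linarith
  have hmb : m < b := by linarith
  obtain ⟨i0, hi0⟩ := h.ne m ⟨hma, hmb⟩
  have key : ∀ u v : ℝ, (a < u ∧ v < b ∧ u < m ∧ m < v) → ∃ ℓ : ℝ → Fin 3 → ℤ,
      Sec (Icc u v) Q (fun _ => dz) ℓ ∧ (∀ t ∈ Icc u v, ∀ i ∈ Q t, (3 : ℤ) ∣ ℓ t i - (i : ℕ)) ∧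
        ℓ m i0 = (i0 : ℕ) := by
    rintro u v ⟨h1, h2, h3, h4⟩
    obtain ⟨ℓ, hℓ, hd⟩ := h.lift h1 (h3.trans h4) h2
    have hd0 := hd m ⟨h3.le, h4.le⟩ i0 hi0
    refine ⟨fun t i => ℓ t i + (-(ℓ m i0 - (i0 : ℕ))), hℓ.add _, fun t ht i hi => ?_, by ring⟩
    have := dvd_sub (hd t ht i hi) hd0
    have e : ℓ t i + -(ℓ m i0 - ((i0 : ℕ) : ℤ)) - ((i : ℕ) : ℤ) =
      ℓ t i - ((i : ℕ) : ℤ) - (ℓ m i0 - ((i0 : ℕ) : ℤ)) := by ring
    rw [e]
    exact this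
  choose! L hL using key
  have agree : ∀ u v u' v' : ℝ, (a < u ∧ v < b ∧ u < m ∧ m < v) →
      (a < u' ∧ v' < b ∧ u' < m ∧ m < v') → ∀ t ∈ Icc u v, t ∈ Icc u' v' → ∀ i ∈ Q t,
        L u v t i = L u' v' t i := by
    intro u v u' v' hu hu' t ht ht' i hi
    obtain ⟨s1, d1, n1⟩ := hL u v hu
    obtain ⟨s2, d2, n2⟩ := hL u' v' hu'
    have hS1 : Icc (max u u') (min v v') ⊆ Icc u v :=
      Icc_subset_Icc (le_max_left _ _) (min_le_left _ _)
    have hS2 : Icc (max u u') (min v v') ⊆ Icc u' v' :=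
      Icc_subset_Icc (le_max_right _ _) (min_le_right _ _)
    obtain ⟨c, hc⟩ := Sec.unique (h.tor dz dz_coc (B := Icc (max u u') (min v v'))
      fun s hs => ⟨lt_of_lt_of_le hu.1 ((le_max_left _ _).trans hs.1),
        lt_of_le_of_lt (hs.2.trans (min_le_left _ _)) hu.2.1⟩) isPreconnected_Icc
      (s1.mono hS1) (s2.mono hS2)
    have hm' : m ∈ Icc (max u u') (min v v') :=
      ⟨max_le hu.2.2.1.le hu'.2.2.1.le, le_min hu.2.2.2.le hu'.2.2.2.le⟩
    have e1 := hc m hm' i0 hi0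
    rw [n1, n2] at e1
    have e2 := hc t ⟨max_le ht.1 ht'.1, le_min ht.2 ht'.2⟩ i hi
    rw [e2]
    linarith
  have cond : ∀ t ∈ Ioo a b, (a < (a + min t m) / 2 ∧ (b + max t m) / 2 < b ∧
      (a + min t m) / 2 < m ∧ m < (b + max t m) / 2) ∧
        t ∈ Icc ((a + min t m) / 2) ((b + max t m) / 2) := by
    intro t ht
    have g1 : a < min t m := lt_min ht.1 hma
    have g2 : max t m < b := max_lt ht.2 hmb
    have g3 := min_le_right t m
    have g4 := le_max_right t m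
    have g5 := min_le_left t m
    have g6 := le_max_left t m
    refine ⟨⟨by linarith, by linarith, by linarith, by linarith⟩, ⟨by linarith, by linarith⟩⟩
  refine ⟨fun t => L ((a + min t m) / 2) ((b + max t m) / 2) t, ⟨fun t ht i hi j hj => ?_,
    fun t ht => ?_⟩, fun t ht i hi => ?_⟩
  · obtain ⟨c1, c2⟩ := cond t ht
    exact (hL _ _ c1).1.diff t c2 i hi j hj
  · -- a compact interval with `t` and `m` inside
    obtain ⟨c1, c2⟩ := cond t ht
    set u := (a + min t m) / 2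
    set v := (b + max t m) / 2
    have hut : u < t := by
      have g1 : a < min t m := lt_min ht.1 hma
      have g5 := min_le_left t m
      show (a + min t m) / 2 < t
      linarith
    have htv : t < v := by
      have g2 : max t m < b := max_lt ht.2 hmb
      have g6 := le_max_left t m
      show t < (b + max t m) / 2
      linarith
    have h1 := (hL u v c1).1.loc t c2
    rw [nhdsWithin_eq_nhds.2 (Icc_mem_nhds hut htv)] at h1
    refine mem_nhdsWithin_of_mem_nhds ?_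
    filter_upwards [h1, Ioo_mem_nhds hut htv, Ioo_mem_nhds ht.1 ht.2,
      (h.usc t ht)] with s hs1 hs2 hs3 hs4 i hi
    obtain ⟨e1, e2⟩ := cond s hs3
    rw [agree _ _ u v e1 c1 s e2 ⟨hs2.1.le, hs2.2.le⟩ i hi]
    exact hs1 i hi
  · obtain ⟨c1, c2⟩ := cond t ht
    exact (hL _ _ c1).2.1 t c2 i hi

/-- **one height on the open interval** -/
theorem IntCov.exHtO (h : IntCov Q a b) (hab : a < b) : ∃ (M : ℝ → ℤ) (N : ℤ),
    (∀ t ∈ Ioo a b, ∀ l : Fin 3, l ∈ Q t ↔ Res (M t - 2 * (l : ℕ))) ∧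
      (∀ t ∈ Ioo a b, ∀ᶠ s in 𝓝 t, |M s - M t| ≤ 1) ∧
        ∀ t, a < t → t + 1 < b → 6 * N + 2 ≤ M (t + 1) - M t ∧ M (t + 1) - M t ≤ 6 * N + 4 := by
  obtain ⟨ℓ, hℓ, hd⟩ := h.liftO hab
  choose I J hIJ using h.pair
  have hmem : ∀ t ∈ Ioo a b, ∀ l : Fin 3,
      l ∈ Q t ↔ Res (ℓ t (I t) + ℓ t (J t) - 2 * (l : ℕ)) := by
    intro t ht l
    obtain ⟨hI, hJ, hl⟩ := hIJ t ht
    have h1 := mem_iff_mod (hd t ht _ hI) (hℓ.diff t ht _ hI _ hJ).symm l
    unfold Res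
    rw [← h1]
    exact ⟨hl l, fun h2 => by rcases h2 with rfl | rfl; exacts [hI, hJ]⟩
  have hloc : ∀ t ∈ Ioo a b, ∀ᶠ s in 𝓝 t,
      |(ℓ s (I s) + ℓ s (J s)) - (ℓ t (I t) + ℓ t (J t))| ≤ 1 := by
    intro t ht
    obtain ⟨hI, hJ, hl⟩ := hIJ t ht
    have h1 := hℓ.loc t ht
    rw [nhdsWithin_eq_nhds.2 (Ioo_mem_nhds ht.1 ht.2)] at h1
    filter_upwards [h1, h.usc t ht, Ioo_mem_nhds ht.1 ht.2] with s hs hK hsB
    obtain ⟨hIs, hJs, -⟩ := hIJ s hsB
    have e1 := hs _ hIs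
    have e2 := hs _ hJs
    have e3 := hℓ.diff t ht _ hI _ hJ
    have e4 := abs_dz (I t) (J t)
    rw [e1, e2]
    rw [abs_le] at e4 ⊢
    rcases hl _ (hK hIs) with a | a <;> rcases hl _ (hK hJs) with b | b <;>
      rw [a, b] <;> constructor <;> linarith [e4.1, e4.2]
  obtain ⟨M, hM⟩ : ∃ M : ℝ → ℤ, M = fun t => ℓ t (I t) + ℓ t (J t) := ⟨_, rfl⟩
  replace hmem : ∀ t ∈ Ioo a b, ∀ l : Fin 3, l ∈ Q t ↔ Res (M t - 2 * (l : ℕ)) := by
    rw [hM]; exact hmem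
  replace hloc : ∀ t ∈ Ioo a b, ∀ᶠ s in 𝓝 t, |M s - M t| ≤ 1 := by
    rw [hM]; exact hloc
  have hE : ∀ t, a < t → t + 1 < b → (M (t + 1) - M t) % 6 = 2 ∨ (M (t + 1) - M t) % 6 = 3 ∨
      (M (t + 1) - M t) % 6 = 4 := by
    intro t h1 h2
    have ht0 : t ∈ Ioo a b := ⟨h1, by linarith⟩
    have ht1 : t + 1 ∈ Ioo a b := ⟨by linarith, h2⟩
    apply incomparable_mod
    · have := h.inc t h1 h2
      rw [Set.not_subset] at this
      obtain ⟨l, hl, hl'⟩ := this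
      exact ⟨l, (hmem t ht0 l).1 hl, fun hc => hl' ((hmem _ ht1 l).2 hc)⟩
    · have := h.inc' t h1 h2
      rw [Set.not_subset] at this
      obtain ⟨l, hl, hl'⟩ := this
      exact ⟨l, (hmem _ ht1 l).1 hl, fun hc => hl' ((hmem _ ht0 l).2 hc)⟩
  by_cases huv1 : a + 1 < b
  · have hN := const_pre (S := Ioo a (b - 1)) isPreconnected_Ioo
      (f := fun t => (M (t + 1) - M t - 2) / 6) fun t ht => by
        have ht0 : t ∈ Ioo a b := ⟨ht.1, by linarith [ht.2]⟩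
        have ht1 : t + 1 ∈ Ioo a b := ⟨by linarith [ht.1], by linarith [ht.2]⟩
        have h1 : ∀ᶠ s in 𝓝 t, |M (s + 1) - M (t + 1)| ≤ 1 :=
          ((continuous_add_const (1 : ℝ)).tendsto t).eventually (hloc _ ht1)
        filter_upwards [mem_nhdsWithin_of_mem_nhds h1,
          mem_nhdsWithin_of_mem_nhds (hloc _ ht0), self_mem_nhdsWithin] with s hs1 hs2 hs
        have e1 := hE s hs.1 (by linarith [hs.2])
        have e2 := hE t ht.1 (by linarith [ht.2])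
        have hs1' : |M (s + 1) - M (t + 1)| ≤ 1 := hs1
        rw [abs_le] at hs1' hs2
        show (M (s + 1) - M s - 2) / 6 = (M (t + 1) - M t - 2) / 6
        omega
    set t₀ := (a + (b - 1)) / 2 with ht₀
    refine ⟨M, (M (t₀ + 1) - M t₀ - 2) / 6, hmem, hloc, fun t h1 h2 => ?_⟩
    have e1 : (M (t + 1) - M t - 2) / 6 = (M (t₀ + 1) - M t₀ - 2) / 6 :=
      hN t ⟨h1, by linarith⟩ t₀ ⟨by linarith, by linarith⟩
    have e2 := hE t h1 h2
    omega
  · exact ⟨M, 0, hmem, hloc, fun t h1 h2 => absurd h2 (by linarith)⟩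

end Vale.Agent.P032.H564
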