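import Vale.Agent.P032.H564.IntHtO

/-!
# P032: circles with a neutral letter

`StarQ Q` : four letters, the leaves `0, 1, 2` and the centre `3`, given by closed sets of
directions.  Where no direction shows two leaves, the phases of the centre can be filled by leaves:
`fill Q`, and `fill Q` is an `IntCov`.
-/

open Set Filter Topology

noncomputable section

namespace Vale.Agent.P032.H564

open Vale.Agent.P032.H180

/-- four letters on the line -/
structure StarQ (Q : ℝ → Set (Fin 4)) : Prop where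
  ne : ∀ t, (Q t).Nonempty
  cl : ∀ t, ∀ l ∈ Q t, ∃ᶠ s in 𝓝 t, Q s = {l}
  usc : ∀ t, ∀ᶠ s in 𝓝 t, Q s ⊆ Q t
  gen : ∀ t l, Q t = {l} → Q (t + 1) ≠ {l}

/-- a leaf as a letter -/
def lf (l : Fin 3) : Fin 4 := Fin.castSucc l

theorem lf_inj {l m : Fin 3} (h : lf l = lf m) : l = m := Fin.castSucc_injective _ h

theorem lf_ne (l : Fin 3) : lf l ≠ 3 := by revert l; decide

theorem leaf_or (l : Fin 4) : l = 3 ∨ ∃ m, l = lf m := by revert l; decide

variable {Q : ℝ → Set (Fin 4)} {a b t : ℝ}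

theorem StarQ.ex (h : StarQ Q) (t : ℝ) : ∃ l, ∃ᶠ s in 𝓝 t, Q s = {l} := by
  obtain ⟨l, hl⟩ := h.ne t
  exact ⟨l, h.cl t l hl⟩

/-- exactness is open -/
theorem StarQ.opn (h : StarQ Q) {l : Fin 4} (ht : Q t = {l}) : ∀ᶠ s in 𝓝 t, Q s = {l} := by
  filter_upwards [h.usc t] with s hs
  rw [ht] at hs
  exact (h.ne s).subset_singleton_iff.1 hs

/-- the generic directions of three consecutive slots -/
def G3 (Q : ℝ → Set (Fin 4)) (s : ℝ) : Prop :=
  (∃ l, Q (s - 1) = {l}) ∧ ∃ l, Q (s + 1) = {l}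

theorem StarQ.dense1 (h : StarQ Q) {p : ℝ → Prop} {c : ℝ} (hp : ∃ᶠ s in 𝓝 t, p s)
    (ho : ∀ s, p s → ∀ᶠ r in 𝓝 s, p r) : ∃ᶠ s in 𝓝 t, p s ∧ ∃ l, Q (s + c) = {l} := by
  rw [← frequently_frequently_nhds]
  refine hp.mono fun s hs => ?_
  obtain ⟨l, hl⟩ := h.ex (s + c)
  have h1 : Tendsto (fun r : ℝ => r - c) (𝓝 (s + c)) (𝓝 s) := by
    have := (continuous_sub_right c).tendsto (s + c)
    rwa [add_sub_cancel_right] at this
  have h2 : ∃ᶠ r in 𝓝 (s + c), p (r - c) ∧ Q r = {l} :=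
    (hl.and_eventually (h1.eventually (ho s hs))).mono fun r hr => ⟨hr.2, hr.1⟩
  have h3 : ∃ᶠ r in 𝓝 (s + c), p (r - c) ∧ ∃ l, Q (r - c + c) = {l} :=
    h2.mono fun r hr => ⟨hr.1, l, by rw [sub_add_cancel]; exact hr.2⟩
  exact h1.frequently (p := fun r => p r ∧ ∃ l, Q (r + c) = {l}) h3

/-- generic exact points -/
theorem StarQ.frq (h : StarQ Q) {l : Fin 4} (hl : l ∈ Q t) :
    ∃ᶠ s in 𝓝 t, Q s = {l} ∧ G3 Q s := by
  have hop : ∀ c : ℝ, ∀ s, (∃ l, Q (s + c) = {l}) → ∀ᶠ r in 𝓝 s, ∃ l, Q (r + c) = {l} := by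
    rintro c s ⟨l, hl⟩
    have h1 := ((continuous_add_const c).tendsto s).eventually (h.opn hl)
    filter_upwards [h1] with r hr
    exact ⟨l, hr⟩
  have h1 := h.dense1 (c := -1) (h.cl t l hl) fun s hs => h.opn hs
  have h2 := h.dense1 (c := 1) h1 fun s hs => (h.opn hs.1).and (hop _ s hs.2)
  refine h2.mono fun s hs => ⟨hs.1.1, ?_, hs.2⟩
  have := hs.1.2
  rwa [← sub_eq_add_neg] at this

/-- the filled letter at a generic direction -/
def fillAt (Q : ℝ → Set (Fin 4)) (s : ℝ) (l : Fin 3) : Prop :=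
  Q s = {lf l} ∨ (Q s = {3} ∧ Q (s - 1) ≠ {lf l} ∧ Q (s + 1) ≠ {lf l})

/-- the filled cover -/
def fill (Q : ℝ → Set (Fin 4)) (t : ℝ) : Set (Fin 3) :=
  {l | ∃ᶠ s in 𝓝 t, G3 Q s ∧ fillAt Q s l}

theorem mem_fill {l : Fin 3} : l ∈ fill Q t ↔ ∃ᶠ s in 𝓝 t, G3 Q s ∧ fillAt Q s l := Iff.rfl

theorem StarQ.leaf_mem (h : StarQ Q) {l : Fin 3} (hl : lf l ∈ Q t) : l ∈ fill Q t :=
  (h.frq hl).mono fun _ hs => ⟨hs.2, Or.inl hs.1⟩

theorem StarQ.fill_usc (_h : StarQ Q) (t : ℝ) : ∀ᶠ s in 𝓝 t, fill Q s ⊆ fill Q t := by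
  have h1 : ∀ l : Fin 3, ∀ᶠ s in 𝓝 t, l ∈ fill Q s → l ∈ fill Q t := by
    intro l
    by_cases hl : l ∈ fill Q t
    · exact Eventually.of_forall fun _ _ => hl
    · have h2 : ∀ᶠ s in 𝓝 t, ¬ (G3 Q s ∧ fillAt Q s l) := not_frequently.1 hl
      filter_upwards [eventually_eventually_nhds.2 h2] with s hs hc
      exact absurd hs (not_eventually.2 (hc.mono fun r hr => not_not.2 hr))
  filter_upwards [h1 0, h1 1, h1 2] with s h0 h1 h2 l
  fin_cases l
  exacts [h0, h1, h2]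

/-- a letter different from two letters -/
theorem third (x y : Fin 4) : ∃ l : Fin 3, lf l ≠ x ∧ lf l ≠ y := by
  revert x y; decide

theorem StarQ.fill_ne (h : StarQ Q) (t : ℝ) : (fill Q t).Nonempty := by
  obtain ⟨l, hl⟩ := h.ne t
  have h1 := h.frq hl
  rcases leaf_or l with rfl | ⟨m, rfl⟩
  · by_contra hcon
    rw [Set.not_nonempty_iff_eq_empty] at hcon
    have h2 : ∀ m : Fin 3, ∀ᶠ s in 𝓝 t, ¬ (G3 Q s ∧ fillAt Q s m) := by
      intro m
      have : m ∉ fill Q t := by rw [hcon]; exact notMem_empty m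
      exact not_frequently.1 this
    obtain ⟨s, ⟨⟨h3, h4⟩, h5⟩, h6⟩ :=
      ((h1.and_eventually ((h2 0).and (h2 1))).and_eventually (h2 2)).exists
    obtain ⟨⟨x, hx⟩, ⟨y, hy⟩⟩ := h4
    obtain ⟨m, hm1, hm2⟩ := third x y
    have h7 : G3 Q s ∧ fillAt Q s m := by
      refine ⟨⟨⟨x, hx⟩, ⟨y, hy⟩⟩, Or.inr ⟨h3, ?_, ?_⟩⟩
      · rw [hx]
        exact fun hc => hm1 (Set.singleton_injective hc).symm
      · rw [hy]
        exact fun hc => hm2 (Set.singleton_injective hc).symm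
    fin_cases m
    · exact h5.1 h7
    · exact h5.2 h7
    · exact h6 h7
  · exact ⟨m, h.leaf_mem hl⟩

/-- an exact leaf -/
theorem StarQ.fill_leaf (h : StarQ Q) {l : Fin 3} (ht : Q t = {lf l}) : fill Q t = {l} := by
  refine Set.eq_singleton_iff_unique_mem.2 ⟨h.leaf_mem (by rw [ht]; rfl), fun m hm => ?_⟩
  obtain ⟨s, ⟨-, h2⟩, h3⟩ := (hm.and_eventually (h.opn ht)).exists
  rcases h2 with h2 | ⟨h2, -⟩
  · rw [h3] at h2
    exact lf_inj (Set.singleton_injective h2).symm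
  · rw [h3] at h2
    exact absurd (Set.singleton_injective h2) (lf_ne l)

/-- exclusion of the leaf of a neighbour slot -/
theorem StarQ.excl (h : StarQ Q) {σ : ℝ} (hσ : σ = 1 ∨ σ = -1)
    (h1 : ∀ l m : Fin 3, lf l ∈ Q t → lf m ∈ Q t → l = m)
    (h2 : ∀ l m : Fin 3, lf l ∈ Q (t + σ) → lf m ∈ Q (t + σ) → l = m)
    (i1 : ¬ Q t ⊆ Q (t + σ)) (i2 : ¬ Q (t + σ) ⊆ Q t) {m : Fin 3} (hm : lf m ∈ Q (t + σ)) :
    m ∉ fill Q t := by
  intro hc
  -- `m` is not a letter at `t`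
  have hmt : lf m ∉ Q t := by
    intro hmt
    have s1 : ∀ l ∈ Q t, l = 3 ∨ l = lf m := by
      intro l hl
      rcases leaf_or l with rfl | ⟨k, rfl⟩
      · exact Or.inl rfl
      · exact Or.inr (by rw [h1 k m hl hmt])
    have s2 : ∀ l ∈ Q (t + σ), l = 3 ∨ l = lf m := by
      intro l hl
      rcases leaf_or l with rfl | ⟨k, rfl⟩
      · exact Or.inl rfl
      · exact Or.inr (by rw [h2 k m hl hm])
    by_cases h3 : (3 : Fin 4) ∈ Q t
    · refine i2 fun l hl => ?_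
      rcases s2 l hl with rfl | rfl
      exacts [h3, hmt]
    · refine i1 fun l hl => ?_
      rcases s1 l hl with rfl | rfl
      exacts [absurd hl h3, hm]
  have e1 : ∀ᶠ s in 𝓝 t, Q (s + σ) ⊆ Q (t + σ) :=
    ((continuous_add_const σ).tendsto t).eventually (h.usc (t + σ))
  obtain ⟨s, ⟨⟨⟨hx, hy⟩, h4⟩, h5⟩, h6⟩ :=
    ((hc.and_eventually (h.usc t)).and_eventually e1).exists
  have h7 : Q (s + σ) ≠ {lf m} ∧ Q s = {3} := by
    rcases h4 with h4 | ⟨h4, h4', h4''⟩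
    · exact absurd (h5 (by rw [h4]; rfl)) hmt
    · refine ⟨?_, h4⟩
      rcases hσ with rfl | rfl
      · exact h4''
      · rw [← sub_eq_add_neg]; exact h4'
  obtain ⟨h7, h8⟩ := h7
  have h9 : ∃ l, Q (s + σ) = {l} := by
    rcases hσ with rfl | rfl
    · exact hy
    · rw [← sub_eq_add_neg]; exact hx
  obtain ⟨l, hl⟩ := h9
  have h10 : l ∈ Q (t + σ) := h6 (by rw [hl]; rfl)
  rcases leaf_or l with rfl | ⟨k, rfl⟩
  · rcases hσ with rfl | rfl
    · exact h.gen s 3 h8 hl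
    · refine h.gen (s + -1) 3 hl ?_
      rw [neg_add_cancel_right]
      exact h8
  · rw [h2 k m h10 hm] at hl
    exact h7 hl

/-- **the filled cover on an interval without two leaves** -/
theorem StarQ.int (h : StarQ Q) (h1 : ∀ t ∈ Ioo a b, ∀ l m : Fin 3, lf l ∈ Q t → lf m ∈ Q t → l = m)
    (h2 : ∀ t, a < t → t + 1 < b → ¬ Q t ⊆ Q (t + 1) ∧ ¬ Q (t + 1) ⊆ Q t) (hab : a + 2 < b) :
    IntCov (fill Q) a b := by
  -- the leaf of a neighbour
  have up : ∀ t, a < t → t + 1 < b → ∀ m : Fin 3, lf m ∈ Q (t + 1) → m ∉ fill Q t :=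
    fun t ha hb m hm => h.excl (Or.inl rfl) (h1 t ⟨ha, by linarith⟩)
      (h1 (t + 1) ⟨by linarith, hb⟩) (h2 t ha hb).1 (h2 t ha hb).2 hm
  have dn : ∀ t, a < t → t + 1 < b → ∀ m : Fin 3, lf m ∈ Q t → m ∉ fill Q (t + 1) := by
    intro t ha hb m hm
    have e : t + 1 + -1 = t := by ring
    refine h.excl (σ := -1) (Or.inr rfl) (h1 (t + 1) ⟨by linarith, hb⟩) ?_ ?_ ?_ ?_
    · rw [e]; exact h1 t ⟨ha, by linarith⟩
    · rw [e]; exact (h2 t ha hb).2
    · rw [e]; exact (h2 t ha hb).1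
    · rw [e]; exact hm
  refine ⟨fun t _ => h.fill_ne t, fun t ht => ?_, fun t _ => h.fill_usc t, fun t ha hb => ?_,
    fun t ha hb => ?_⟩
  · by_cases h3 : (3 : Fin 4) ∈ Q t
    · by_cases hb : t + 1 < b
      · obtain ⟨l, hl, hl'⟩ := Set.not_subset.1 (h2 t ht.1 hb).2
        rcases leaf_or l with rfl | ⟨m, rfl⟩
        · exact absurd h3 hl'
        · exact ⟨m, up t ht.1 hb m hl⟩
      · have ha' : a < t - 1 := by linarith
        have hb' : t - 1 + 1 < b := by linarith [ht.2]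
        have e : t - 1 + 1 = t := by ring
        obtain ⟨l, hl, hl'⟩ := Set.not_subset.1 (h2 (t - 1) ha' hb').1
        rw [e] at hl'
        rcases leaf_or l with rfl | ⟨m, rfl⟩
        · exact absurd h3 hl'
        · have := dn (t - 1) ha' hb' m hl
          rw [e] at this
          exact ⟨m, this⟩
    · obtain ⟨l, hl⟩ := h.ne t
      rcases leaf_or l with rfl | ⟨m, rfl⟩
      · exact absurd hl h3
      · have hQ : Q t = {lf m} := by
          refine Set.eq_singleton_iff_unique_mem.2 ⟨hl, fun k hk => ?_⟩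
          rcases leaf_or k with rfl | ⟨n, rfl⟩
          · exact absurd hk h3
          · rw [h1 t ht n m hk hl]
        rw [h.fill_leaf hQ]
        obtain ⟨n, hn, -⟩ := third (lf m) (lf m)
        exact ⟨n, fun hc => hn (by rw [mem_singleton_iff.1 hc])⟩
  · -- `fill t` is not contained in `fill (t + 1)`
    obtain ⟨l, hl, hl'⟩ := Set.not_subset.1 (h2 t ha hb).1
    intro hs
    by_cases hx : ∃ m : Fin 3, lf m ∈ Q t
    · obtain ⟨m, hm⟩ := hx
      exact dn t ha hb m hm (hs (h.leaf_mem hm))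
    · push Not at hx
      rcases leaf_or l with rfl | ⟨m, rfl⟩
      · -- `Q (t + 1)` is an exact leaf
        obtain ⟨k, hk⟩ := h.ne (t + 1)
        rcases leaf_or k with rfl | ⟨n, rfl⟩
        · exact hl' hk
        · have hQ : Q (t + 1) = {lf n} := by
            refine Set.eq_singleton_iff_unique_mem.2 ⟨hk, fun j hj => ?_⟩
            rcases leaf_or j with rfl | ⟨i, rfl⟩
            · exact absurd hj hl'
            · rw [h1 (t + 1) ⟨by linarith, hb⟩ i n hj hk]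
          obtain ⟨j, hj⟩ := h.fill_ne t
          have := hs hj
          rw [h.fill_leaf hQ] at this
          rw [mem_singleton_iff.1 this] at hj
          exact up t ha hb n hk hj
      · exact hx m hl
  · obtain ⟨l, hl, hl'⟩ := Set.not_subset.1 (h2 t ha hb).2
    intro hs
    by_cases hx : ∃ m : Fin 3, lf m ∈ Q (t + 1)
    · obtain ⟨m, hm⟩ := hx
      exact up t ha hb m hm (hs (h.leaf_mem hm))
    · push Not at hx
      rcases leaf_or l with rfl | ⟨m, rfl⟩
      · obtain ⟨k, hk⟩ := h.ne t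
        rcases leaf_or k with rfl | ⟨n, rfl⟩
        · exact hl' hk
        · have hQ : Q t = {lf n} := by
            refine Set.eq_singleton_iff_unique_mem.2 ⟨hk, fun j hj => ?_⟩
            rcases leaf_or j with rfl | ⟨i, rfl⟩
            · exact absurd hj hl'
            · rw [h1 t ⟨ha, by linarith⟩ i n hj hk]
          obtain ⟨j, hj⟩ := h.fill_ne (t + 1)
          have := hs hj
          rw [h.fill_leaf hQ] at this
          rw [mem_singleton_iff.1 this] at hj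
          exact dn t ha hb n hk hj
      · exact hx m hl

end Vale.Agent.P032.H564
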